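import Vale.Agent.P043.T2.H779.Tab

/-! # P043, the finite gadget -/

namespace Vale.Agent.P043.T2.H779

theorem kd_mod (k l : ℕ) : kd (k % 5) (l % 7) = kd k l := by simp [kd]

theorem kd_lt (k l : ℕ) : kd k l < 17 := by
  have h := al_iff.1 (al_iff.1 kd_lt' (k % 5) (Nat.mod_lt _ (by norm_num))) (l % 7)
    (Nat.mod_lt _ (by norm_num))
  rw [kd_mod] at h
  exact of_decide_eq_true h

theorem kd_congr {k l k' l' : ℕ} (h1 : k' % 5 = k % 5) (h2 : l' % 7 = l % 7) : kd k' l' = kd k l := by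
  rw [← kd_mod k l, ← kd_mod k' l', h1, h2]

theorem ce_lt (i j : ℕ) : ce i j < 6 := by unfold ce; omega

theorem T0y {x n i j : ℕ} (hx : x < 17) (hn : n < 9) (hi : i < 4) (hj : j < 9)
    (h : X2 x j = true) : ∃ a < 2, ∃ b < 3, rD0 x n ((i + 4 - a) % 4) ((j + 9 - b) % 9) ≠ 0 ∧
      ∀ a' < 2, ∀ b' < 3, rD0 x n ((i + 4 - a') % 4) ((j + 9 - b') % 9) ≠ 0 → a' = a ∧ b' = b := by
  have h1 := al_iff.1 (al_iff.1 (al_iff.1 (al_iff.1 T0' x hx) n hn) i hi) j hj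
  rw [h, if_pos rfl, eu2_iff] at h1
  simpa using h1

theorem T0n {x n i j : ℕ} (hx : x < 17) (hn : n < 9) (hi : i < 4) (hj : j < 9)
    (h : X2 x j = false) : ∀ a < 2, ∀ b < 3,
      rD0 x n ((i + 4 - a) % 4) ((j + 9 - b) % 9) = 0 := by
  have h1 := al_iff.1 (al_iff.1 (al_iff.1 (al_iff.1 T0' x hx) n hn) i hi) j hj
  rw [h, if_neg (by simp), al_iff] at h1
  intro a ha b hb
  simpa using al_iff.1 (h1 a ha) b hb

theorem T1y {x n i j : ℕ} (hx : x < 17) (hn : n < 4) (hi : i < 4) (hj : j < 9)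
    (h : X2 x j = false) : ∃ a < 2, ∃ b < 3, rD1 x n ((i + 4 - a) % 4) ((j + 9 - b) % 9) ≠ 0 ∧
      ∀ a' < 2, ∀ b' < 3, rD1 x n ((i + 4 - a') % 4) ((j + 9 - b') % 9) ≠ 0 → a' = a ∧ b' = b := by
  have h1 := al_iff.1 (al_iff.1 (al_iff.1 (al_iff.1 T1' x hx) n hn) i hi) j hj
  rw [h, if_neg (by simp), eu2_iff] at h1
  simpa using h1

theorem T1n {x n i j : ℕ} (hx : x < 17) (hn : n < 4) (hi : i < 4) (hj : j < 9)
    (h : X2 x j = true) : ∀ a < 2, ∀ b < 3,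
      rD1 x n ((i + 4 - a) % 4) ((j + 9 - b) % 9) = 0 := by
  have h1 := al_iff.1 (al_iff.1 (al_iff.1 (al_iff.1 T1' x hx) n hn) i hi) j hj
  rw [h, if_pos rfl, al_iff] at h1
  intro a ha b hb
  simpa using al_iff.1 (h1 a ha) b hb

theorem R0 {x n i j z : ℕ} (hx : x < 17) (hn : n < 9) (hi : i < 4) (hj : j < 9)
    (hz : z < N0 x (ce i j)) :
    ∃ a < 2, ∃ b < 3, rD0 x ((n + 3 * b) % 9) ((i + 4 - 2 * a) % 4) ((j + 9 - 3 * b) % 9) = z + 1 ∧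
      ∀ a' < 2, ∀ b' < 3, rD0 x ((n + 3 * b') % 9) ((i + 4 - 2 * a') % 4) ((j + 9 - 3 * b') % 9)
        = z + 1 → a' = a ∧ b' = b := by
  have h1 := al_iff.1 (al_iff.1 (al_iff.1 (al_iff.1 (al_iff.1 R0' x hx) n hn) i hi) j hj) z hz
  rw [eu2_iff] at h1
  simpa using h1

theorem R1 {x n i j z : ℕ} (hx : x < 17) (hn : n < 4) (hi : i < 4) (hj : j < 9)
    (hz : z < N1 x (ce i j)) :
    ∃ a < 2, ∃ b < 3, rD1 x ((n + 2 * a) % 4) ((i + 4 - 2 * a) % 4) ((j + 9 - 3 * b) % 9) = z + 1 ∧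
      ∀ a' < 2, ∀ b' < 3, rD1 x ((n + 2 * a') % 4) ((i + 4 - 2 * a') % 4) ((j + 9 - 3 * b') % 9)
        = z + 1 → a' = a ∧ b' = b := by
  have h1 := al_iff.1 (al_iff.1 (al_iff.1 (al_iff.1 (al_iff.1 R1' x hx) n hn) i hi) j hj) z hz
  rw [eu2_iff] at h1
  simpa using h1

theorem N0le {x n i j : ℕ} (hx : x < 17) (hn : n < 9) (hi : i < 4) (hj : j < 9) :
    rD0 x n i j ≤ N0 x (ce i j) := by
  have h1 := al_iff.1 (al_iff.1 (al_iff.1 (al_iff.1 N0' x hx) n hn) i hi) j hj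
  exact of_decide_eq_true h1

theorem N1le {x n i j : ℕ} (hx : x < 17) (hn : n < 4) (hi : i < 4) (hj : j < 9) :
    rD1 x n i j ≤ N1 x (ce i j) := by
  have h1 := al_iff.1 (al_iff.1 (al_iff.1 (al_iff.1 N1' x hx) n hn) i hi) j hj
  exact of_decide_eq_true h1

theorem N0c {x e : ℕ} (hx : x < 17) (he : e < 6) (h : c1 e = true) : N0 x e = 0 := by
  have h1 := al_iff.1 (al_iff.1 NC' x hx) e he
  rw [h, if_pos rfl] at h1
  simpa using h1

theorem N1c {x e : ℕ} (hx : x < 17) (he : e < 6) (h : c1 e = false) : N1 x e = 0 := by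
  have h1 := al_iff.1 (al_iff.1 NC' x hx) e he
  rw [h, if_neg (by simp)] at h1
  simpa using h1

theorem I0 {e k l z : ℕ} (he : e < 6) (hc : c1 e = false) (hz : z < N0 (kd k l) e) :
    ∃ f < 7, ∃ s < 5, (k % 5 = kI e (5 * f + s) ∧ l % 7 = lI e (5 * f + s) ∧
      rI e (5 * f + s) = z) ∧
      ∀ f' < 7, ∀ s' < 5, (k % 5 = kI e (5 * f' + s') ∧ l % 7 = lI e (5 * f' + s') ∧
        rI e (5 * f' + s') = z) → f' = f ∧ s' = s := by
  have h1 := al_iff.1 I0' e he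
  rw [hc, Bool.false_or] at h1
  rw [← kd_mod] at hz
  have h2 := al_iff.1 (al_iff.1 (al_iff.1 h1 (k % 5) (Nat.mod_lt _ (by norm_num))) (l % 7)
    (Nat.mod_lt _ (by norm_num))) z hz
  rw [eu2_iff] at h2
  simpa [and_assoc] using h2

theorem I1 {e k l z : ℕ} (he : e < 6) (hc : c1 e = true) (hz : z < N1 (kd k l) e) :
    ∃ f < 5, ∃ s < 7, (k % 5 = kI e (7 * f + s) ∧ l % 7 = lI e (7 * f + s) ∧
      rI e (7 * f + s) = z) ∧
      ∀ f' < 5, ∀ s' < 7, (k % 5 = kI e (7 * f' + s') ∧ l % 7 = lI e (7 * f' + s') ∧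
        rI e (7 * f' + s') = z) → f' = f ∧ s' = s := by
  have h1 := al_iff.1 I1' e he
  rw [hc, Bool.not_true, Bool.false_or] at h1
  rw [← kd_mod] at hz
  have h2 := al_iff.1 (al_iff.1 (al_iff.1 h1 (k % 5) (Nat.mod_lt _ (by norm_num))) (l % 7)
    (Nat.mod_lt _ (by norm_num))) z hz
  rw [eu2_iff] at h2
  simpa [and_assoc] using h2

theorem J0 {e f s : ℕ} (he : e < 6) (hc : c1 e = false) (hf : f < 7) (hs : s < 5) :
    kI e (5 * f + s) = kI e (5 * f) ∧ kI e (5 * f + s) < 5 ∧ lI e (5 * f + s) < 7 ∧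
      rI e (5 * f + s) < N0 (kd (kI e (5 * f + s)) (lI e (5 * f + s))) e := by
  have h1 := al_iff.1 J0' e he
  rw [hc, Bool.false_or] at h1
  have h2 := al_iff.1 (al_iff.1 h1 f hf) s hs
  simpa [and_assoc] using h2

theorem J1 {e f s : ℕ} (he : e < 6) (hc : c1 e = true) (hf : f < 5) (hs : s < 7) :
    lI e (7 * f + s) = lI e (7 * f) ∧ kI e (7 * f + s) < 5 ∧ lI e (7 * f + s) < 7 ∧
      rI e (7 * f + s) < N1 (kd (kI e (7 * f + s)) (lI e (7 * f + s))) e := by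
  have h1 := al_iff.1 J1' e he
  rw [hc, Bool.not_true, Bool.false_or] at h1
  have h2 := al_iff.1 (al_iff.1 h1 f hf) s hs
  simpa [and_assoc] using h2

theorem G1 {u f : ℕ} (hu : u < 49) (hf : f < 7) : ∃ d < 7, ((u + 7 * d) % 49) / 7 = f ∧
    ∀ d' < 7, ((u + 7 * d') % 49) / 7 = f → d' = d := by
  have h := al_iff.1 (al_iff.1 G1a u hu) f hf
  rw [eu1_iff] at h; simpa using h
theorem G1' {u f : ℕ} (hu : u < 25) (hf : f < 5) : ∃ d < 5, ((u + 5 * d) % 25) / 5 = f ∧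
    ∀ d' < 5, ((u + 5 * d') % 25) / 5 = f → d' = d := by
  have h := al_iff.1 (al_iff.1 G1b u hu) f hf
  rw [eu1_iff] at h; simpa using h
theorem G2 {k s : ℕ} (hk : k < 25) (hs : s < 5) : ∃ c < 5, ((k + 25 - 5 * c) % 25) / 5 = s ∧
    ∀ c' < 5, ((k + 25 - 5 * c') % 25) / 5 = s → c' = c := by
  have h := al_iff.1 (al_iff.1 G2a k hk) s hs
  rw [eu1_iff] at h; simpa using h
theorem G2' {k s : ℕ} (hk : k < 49) (hs : s < 7) : ∃ c < 7, ((k + 49 - 7 * c) % 49) / 7 = s ∧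
    ∀ c' < 7, ((k + 49 - 7 * c') % 49) / 7 = s → c' = c := by
  have h := al_iff.1 (al_iff.1 G2b k hk) s hs
  rw [eu1_iff] at h; simpa using h
theorem G3 {k s : ℕ} (hk : k < 25) (hs : s < 5) : ∃ c < 5, ((k + 25 - c) % 25) % 5 = s ∧
    ∀ c' < 5, ((k + 25 - c') % 25) % 5 = s → c' = c := by
  have h := al_iff.1 (al_iff.1 G3a k hk) s hs
  rw [eu1_iff] at h; simpa using h
theorem G3' {k s : ℕ} (hk : k < 49) (hs : s < 7) : ∃ c < 7, ((k + 49 - c) % 49) % 7 = s ∧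
    ∀ c' < 7, ((k + 49 - c') % 49) % 7 = s → c' = c := by
  have h := al_iff.1 (al_iff.1 G3b k hk) s hs
  rw [eu1_iff] at h; simpa using h

/-- unique existence over the index set -/
def EU (P : ℕ → ℕ → ℕ → ℕ → Prop) : Prop :=
  ∃ a < 2, ∃ b < 3, ∃ c < 5, ∃ d < 7, P a b c d ∧
    ∀ a' < 2, ∀ b' < 3, ∀ c' < 5, ∀ d' < 7, P a' b' c' d' → a' = a ∧ b' = b ∧ c' = c ∧ d' = d

theorem EU.ix {P : ℕ → ℕ → ℕ → ℕ → Prop} (h : EU P) : ∃! i : Ix, P i.1 i.2.1 i.2.2.1 i.2.2.2 := by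
  obtain ⟨a, ha, b, hb, c, hc, d, hd, hP, hu⟩ := h
  refine ⟨(⟨a, ha⟩, ⟨b, hb⟩, ⟨c, hc⟩, ⟨d, hd⟩), hP, ?_⟩
  rintro ⟨a', b', c', d'⟩ hP'
  obtain ⟨h1, h2, h3, h4⟩ := hu a' a'.2 b' b'.2 c' c'.2 d' d'.2 hP'
  exact Prod.ext (Fin.ext h1) (Prod.ext (Fin.ext h2) (Prod.ext (Fin.ext h3) (Fin.ext h4)))

/-- class 0, type true -/
theorem tt0 {n i j k l u : ℕ} (hn : n < 9) (hi : i < 4) (hj : j < 9) (hk : k < 25) (hl : l < 49)
    (hu : u < 49) (hX : X2 (kd k l) j = true) :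
    EU fun a b c d =>
      rD0 (kd ((k + 25 - 5 * c) % 25) ((l + 49 - 7 * d) % 49)) n ((i + 4 - a) % 4)
        ((j + 9 - b) % 9) ≠ 0 ∧
      rD0 (kd ((k + 25 - 5 * c) % 25) ((l + 49 - 7 * d) % 49)) n ((i + 4 - a) % 4)
        ((j + 9 - b) % 9) = rB0 (ce ((i + 4 - a) % 4) ((j + 9 - b) % 9)) ((u + 7 * d) % 49)
          ((k + 25 - 5 * c) % 25) ((l + 49 - 7 * d) % 49) := by
  have hkd : ∀ c < 5, ∀ d < 7, kd ((k + 25 - 5 * c) % 25) ((l + 49 - 7 * d) % 49) = kd k l :=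
    fun c hc d hd => kd_congr (by omega) (by omega)
  obtain ⟨a, ha, b, hb, hab, uab⟩ := T0y (kd_lt k l) hn hi hj hX
  set i' := (i + 4 - a) % 4 with hi'
  set j' := (j + 9 - b) % 9 with hj'
  have hle := N0le (kd_lt k l) hn (i := i') (j := j') (Nat.mod_lt _ (by norm_num))
    (Nat.mod_lt _ (by norm_num))
  obtain ⟨z, hz⟩ := Nat.exists_eq_succ_of_ne_zero hab
  have hc1 : c1 (ce i' j') = false := by
    by_contra hcon
    rw [Bool.not_eq_false] at hcon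
    have := N0c (kd_lt k l) (ce_lt i' j') hcon
    omega
  obtain ⟨f, hf, s, hs, ⟨e1, e2, e3⟩, ufs⟩ := I0 (ce_lt i' j') hc1
    (show z < N0 (kd k l) (ce i' j') by omega)
  obtain ⟨d, hd, hd1, ud⟩ := G1 hu hf
  obtain ⟨c, hc, hc1', uc⟩ := G2 hk hs
  refine ⟨a, ha, b, hb, c, hc, d, hd, ⟨?_, ?_⟩, ?_⟩
  · rw [hkd c hc d hd]; exact hab
  · rw [hkd c hc d hd, ← hi', ← hj', hz]
    unfold rB0
    rw [hd1, hc1', if_pos ⟨by rw [← e1]; omega, by rw [← e2]; omega⟩, e3]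
  · intro a' ha' b' hb' c' hc' d' hd' ⟨g1, g2⟩
    rw [hkd c' hc' d' hd'] at g1 g2
    obtain ⟨rfl, rfl⟩ := uab a' ha' b' hb' g1
    rw [← hi', ← hj', hz] at g2
    unfold rB0 at g2
    split_ifs at g2 with hif
    · obtain ⟨h1, h2⟩ := ufs (((u + 7 * d') % 49) / 7) (by omega) (((k + 25 - 5 * c') % 25) / 5)
        (by omega) ⟨by rw [← hif.1]; omega, by rw [← hif.2]; omega, by omega⟩
      exact ⟨rfl, rfl, uc c' hc' h2, ud d' hd' h1⟩

/-- class 1, type true -/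
theorem tt1 {n i j k l u : ℕ} (hn : n < 4) (hi : i < 4) (hj : j < 9) (hk : k < 25) (hl : l < 49)
    (hu : u < 25) (hX : X2 (kd k l) j = false) :
    EU fun a b c d =>
      rD1 (kd ((k + 25 - 5 * c) % 25) ((l + 49 - 7 * d) % 49)) n ((i + 4 - a) % 4)
        ((j + 9 - b) % 9) ≠ 0 ∧
      rD1 (kd ((k + 25 - 5 * c) % 25) ((l + 49 - 7 * d) % 49)) n ((i + 4 - a) % 4)
        ((j + 9 - b) % 9) = rB1 (ce ((i + 4 - a) % 4) ((j + 9 - b) % 9)) ((u + 5 * c) % 25)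
          ((k + 25 - 5 * c) % 25) ((l + 49 - 7 * d) % 49) := by
  have hkd : ∀ c < 5, ∀ d < 7, kd ((k + 25 - 5 * c) % 25) ((l + 49 - 7 * d) % 49) = kd k l :=
    fun c hc d hd => kd_congr (by omega) (by omega)
  obtain ⟨a, ha, b, hb, hab, uab⟩ := T1y (kd_lt k l) hn hi hj hX
  set i' := (i + 4 - a) % 4 with hi'
  set j' := (j + 9 - b) % 9 with hj'
  have hle := N1le (kd_lt k l) hn (i := i') (j := j') (Nat.mod_lt _ (by norm_num))
    (Nat.mod_lt _ (by norm_num))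
  obtain ⟨z, hz⟩ := Nat.exists_eq_succ_of_ne_zero hab
  have hc1 : c1 (ce i' j') = true := by
    by_contra hcon
    rw [Bool.not_eq_true] at hcon
    have := N1c (kd_lt k l) (ce_lt i' j') hcon
    omega
  obtain ⟨f, hf, s, hs, ⟨e1, e2, e3⟩, ufs⟩ := I1 (ce_lt i' j') hc1
    (show z < N1 (kd k l) (ce i' j') by omega)
  obtain ⟨c, hc, hc1', uc⟩ := G1' hu hf
  obtain ⟨d, hd, hd1, ud⟩ := G2' hl hs
  refine ⟨a, ha, b, hb, c, hc, d, hd, ⟨?_, ?_⟩, ?_⟩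
  · rw [hkd c hc d hd]; exact hab
  · rw [hkd c hc d hd, ← hi', ← hj', hz]
    unfold rB1
    rw [hd1, hc1', if_pos ⟨by rw [← e1]; omega, by rw [← e2]; omega⟩, e3]
  · intro a' ha' b' hb' c' hc' d' hd' ⟨g1, g2⟩
    rw [hkd c' hc' d' hd'] at g1 g2
    obtain ⟨rfl, rfl⟩ := uab a' ha' b' hb' g1
    rw [← hi', ← hj', hz] at g2
    unfold rB1 at g2
    split_ifs at g2 with hif
    · obtain ⟨h1, h2⟩ := ufs (((u + 5 * c') % 25) / 5) (by omega) (((l + 49 - 7 * d') % 49) / 7)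
        (by omega) ⟨by rw [← hif.1]; omega, by rw [← hif.2]; omega, by omega⟩
      exact ⟨rfl, rfl, uc c' hc' h1, ud d' hd' h2⟩

/-- class 0, type false -/
theorem ff0 {n i j k l u : ℕ} (hn : n < 9) (hi : i < 4) (hj : j < 9) (hk : k < 25) (hl : l < 49)
    (hu : u < 49) (hX : c1 (ce i j) = false) :
    EU fun a b c d =>
      rD0 (kd ((k + 25 - c) % 25) ((l + 49 - d) % 49)) ((n + 3 * b) % 9) ((i + 4 - 2 * a) % 4)
        ((j + 9 - 3 * b) % 9) ≠ 0 ∧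
      rD0 (kd ((k + 25 - c) % 25) ((l + 49 - d) % 49)) ((n + 3 * b) % 9) ((i + 4 - 2 * a) % 4)
        ((j + 9 - 3 * b) % 9) = rB0 (ce ((i + 4 - 2 * a) % 4) ((j + 9 - 3 * b) % 9)) u
          ((k + 25 - c) % 25) ((l + 49 - d) % 49) := by
  have hce : ∀ a < 2, ∀ b < 3, ce ((i + 4 - 2 * a) % 4) ((j + 9 - 3 * b) % 9) = ce i j := by
    intro a ha b hb
    unfold ce
    have h1 : (i + 4 - 2 * a) % 4 % 2 = i % 2 := by omega
    have h2 : (j + 9 - 3 * b) % 9 % 3 = j % 3 := by omega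
    rw [h1, h2]
  have hf : u / 7 < 7 := by omega
  obtain ⟨-, hv, -, -⟩ := J0 (ce_lt i j) hX hf (show 0 < 5 by norm_num)
  rw [add_zero] at hv
  obtain ⟨c, hc, hc1', uc⟩ := G3 hk hv
  have hs : ((k + 25 - c) % 25) / 5 < 5 := by omega
  obtain ⟨q1, q2, q3, q4⟩ := J0 (ce_lt i j) hX hf hs
  obtain ⟨d, hd, hd1, ud⟩ := G3' hl q3
  have hkd : kd (kI (ce i j) (5 * (u / 7) + ((k + 25 - c) % 25) / 5))
      (lI (ce i j) (5 * (u / 7) + ((k + 25 - c) % 25) / 5)) =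
      kd ((k + 25 - c) % 25) ((l + 49 - d) % 49) := by
    refine kd_congr ?_ ?_
    · rw [hc1', q1, Nat.mod_eq_of_lt (by rw [← q1]; exact q2)]
    · rw [hd1, Nat.mod_eq_of_lt q3]
  rw [hkd] at q4
  obtain ⟨a, ha, b, hb, hab, uab⟩ := R0 (kd_lt _ _) hn hi hj q4
  refine ⟨a, ha, b, hb, c, hc, d, hd, ⟨?_, ?_⟩, ?_⟩
  · rw [hab]; omega
  · rw [hab, hce a ha b hb]
    unfold rB0
    rw [if_pos ⟨by rw [hc1', q1], hd1⟩]
  · intro a' ha' b' hb' c' hc' d' hd' ⟨g1, g2⟩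
    rw [hce a' ha' b' hb'] at g2
    unfold rB0 at g2
    split_ifs at g2 with hif
    · have hs' : ((k + 25 - c') % 25) / 5 < 5 := by omega
      obtain ⟨p1, -, -, -⟩ := J0 (ce_lt i j) hX hf hs'
      have hcc : c' = c := uc c' hc' (by rw [hif.1, p1])
      subst hcc
      have hdd : d' = d := ud d' hd' hif.2
      subst hdd
      obtain ⟨h1, h2⟩ := uab a' ha' b' hb' g2
      exact ⟨h1, h2, rfl, rfl⟩
    · exact absurd g2 g1

/-- class 1, type false -/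
theorem ff1 {n i j k l u : ℕ} (hn : n < 4) (hi : i < 4) (hj : j < 9) (hk : k < 25) (hl : l < 49)
    (hu : u < 25) (hX : c1 (ce i j) = true) :
    EU fun a b c d =>
      rD1 (kd ((k + 25 - c) % 25) ((l + 49 - d) % 49)) ((n + 2 * a) % 4) ((i + 4 - 2 * a) % 4)
        ((j + 9 - 3 * b) % 9) ≠ 0 ∧
      rD1 (kd ((k + 25 - c) % 25) ((l + 49 - d) % 49)) ((n + 2 * a) % 4) ((i + 4 - 2 * a) % 4)
        ((j + 9 - 3 * b) % 9) = rB1 (ce ((i + 4 - 2 * a) % 4) ((j + 9 - 3 * b) % 9)) u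
          ((k + 25 - c) % 25) ((l + 49 - d) % 49) := by
  have hce : ∀ a < 2, ∀ b < 3, ce ((i + 4 - 2 * a) % 4) ((j + 9 - 3 * b) % 9) = ce i j := by
    intro a ha b hb
    unfold ce
    have h1 : (i + 4 - 2 * a) % 4 % 2 = i % 2 := by omega
    have h2 : (j + 9 - 3 * b) % 9 % 3 = j % 3 := by omega
    rw [h1, h2]
  have hf : u / 5 < 5 := by omega
  obtain ⟨-, -, hv, -⟩ := J1 (ce_lt i j) hX hf (show 0 < 7 by norm_num)
  rw [add_zero] at hv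
  obtain ⟨d, hd, hd1, ud⟩ := G3' hl hv
  have hs : ((l + 49 - d) % 49) / 7 < 7 := by omega
  obtain ⟨q1, q2, q3, q4⟩ := J1 (ce_lt i j) hX hf hs
  obtain ⟨c, hc, hc1', uc⟩ := G3 hk q2
  have hkd : kd (kI (ce i j) (7 * (u / 5) + ((l + 49 - d) % 49) / 7))
      (lI (ce i j) (7 * (u / 5) + ((l + 49 - d) % 49) / 7)) =
      kd ((k + 25 - c) % 25) ((l + 49 - d) % 49) := by
    refine kd_congr ?_ ?_
    · rw [hc1', Nat.mod_eq_of_lt q2]
    · rw [hd1, q1, Nat.mod_eq_of_lt (by rw [← q1]; exact q3)]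
  rw [hkd] at q4
  obtain ⟨a, ha, b, hb, hab, uab⟩ := R1 (kd_lt _ _) hn hi hj q4
  refine ⟨a, ha, b, hb, c, hc, d, hd, ⟨?_, ?_⟩, ?_⟩
  · rw [hab]; omega
  · rw [hab, hce a ha b hb]
    unfold rB1
    rw [if_pos ⟨hc1', by rw [hd1, q1]⟩]
  · intro a' ha' b' hb' c' hc' d' hd' ⟨g1, g2⟩
    rw [hce a' ha' b' hb'] at g2
    unfold rB1 at g2
    split_ifs at g2 with hif
    · have hs' : ((l + 49 - d') % 49) / 7 < 7 := by omega
      obtain ⟨p1, -, -, -⟩ := J1 (ce_lt i j) hX hf hs'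
      have hdd : d' = d := ud d' hd' (by rw [hif.2, p1])
      subst hdd
      have hcc : c' = c := uc c' hc' hif.1
      subst hcc
      obtain ⟨h1, h2⟩ := uab a' ha' b' hb' g2
      exact ⟨h1, h2, rfl, rfl⟩
    · exact absurd g2 g1

/-! ### Back to the groups -/

theorem va {n : ℕ} [NeZero n] (x : ZMod n) (m : ℕ) : (x + (m : ZMod n)).val = (x.val + m) % n := by
  rw [ZMod.val_add, ZMod.val_natCast, Nat.add_mod_mod]

theorem vs {n : ℕ} [NeZero n] (x : ZMod n) {m : ℕ} (hm : m ≤ n) :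
    (x - (m : ZMod n)).val = (x.val + n - m) % n := by
  have h : x - (m : ZMod n) = x + ((n - m : ℕ) : ZMod n) := by
    rw [Nat.cast_sub hm, ZMod.natCast_self]; ring
  rw [h, va, Nat.add_sub_assoc hm]

def A0 : Set (K × K) :=
  {p | rD0 (kd p.2.2.2.1.val p.2.2.2.2.val) (p.1.2.1 - p.2.2.1).val p.2.1.val p.2.2.1.val ≠ 0 ∧
    rD0 (kd p.2.2.2.1.val p.2.2.2.2.val) (p.1.2.1 - p.2.2.1).val p.2.1.val p.2.2.1.val =
      rB0 (ce p.2.1.val p.2.2.1.val) (p.1.2.2.2 - p.2.2.2.2).val p.2.2.2.1.val p.2.2.2.2.val}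

def A1 : Set (K × K) :=
  {p | rD1 (kd p.2.2.2.1.val p.2.2.2.2.val) (p.1.1 - p.2.1).val p.2.1.val p.2.2.1.val ≠ 0 ∧
    rD1 (kd p.2.2.2.1.val p.2.2.2.2.val) (p.1.1 - p.2.1).val p.2.1.val p.2.2.1.val =
      rB1 (ce p.2.1.val p.2.2.1.val) (p.1.2.2.1 - p.2.2.2.1).val p.2.2.2.1.val p.2.2.2.2.val}

def X (τ : Bool) : Set K :=
  if τ then {r | X2 (kd r.2.2.1.val r.2.2.2.val) r.2.1.val = true}
  else {r | c1 (ce r.1.val r.2.1.val) = false}

theorem kap_true (i : Ix) : kap (row true i) =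
    (((i.1 : ℕ) : ZMod 4), ((i.2.1 : ℕ) : ZMod 9), ((5 * (i.2.2.1 : ℕ) : ℕ) : ZMod 25),
      ((7 * (i.2.2.2 : ℕ) : ℕ) : ZMod 49)) := by
  have e1 : (11025 : ZMod 4) = 1 := by decide
  have e2 : (34300 : ZMod 4) = 0 := by decide
  have e3 : (15876 : ZMod 4) = 0 := by decide
  have e4 : (27000 : ZMod 4) = 0 := by decide
  have f1 : (11025 : ZMod 9) = 0 := by decide
  have f2 : (34300 : ZMod 9) = 1 := by decide
  have f3 : (15876 : ZMod 9) = 0 := by decide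
  have f4 : (27000 : ZMod 9) = 0 := by decide
  have g1 : (11025 : ZMod 25) = 0 := by decide
  have g2 : (34300 : ZMod 25) = 0 := by decide
  have g3 : (15876 : ZMod 25) = 1 := by decide
  have g4 : (27000 : ZMod 25) = 0 := by decide
  have k1 : (11025 : ZMod 49) = 0 := by decide
  have k2 : (34300 : ZMod 49) = 0 := by decide
  have k3 : (15876 : ZMod 49) = 0 := by decide
  have k4 : (27000 : ZMod 49) = 1 := by decide
  unfold kap row
  refine Prod.ext ?_ (Prod.ext ?_ (Prod.ext ?_ ?_))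
  · simp only [if_true]; push_cast; rw [e1, e2, e3, e4]; ring
  · simp only [if_true]; push_cast; rw [f1, f2, f3, f4]; ring
  · simp only [if_true]; push_cast; rw [g1, g2, g3, g4]; ring
  · simp only [if_true]; push_cast; rw [k1, k2, k3, k4]; ring

theorem kap_false (i : Ix) : kap (row false i) =
    (((2 * (i.1 : ℕ) : ℕ) : ZMod 4), ((3 * (i.2.1 : ℕ) : ℕ) : ZMod 9), ((i.2.2.1 : ℕ) : ZMod 25),
      ((i.2.2.2 : ℕ) : ZMod 49)) := by
  have e1 : (11025 : ZMod 4) = 1 := by decide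
  have e2 : (34300 : ZMod 4) = 0 := by decide
  have e3 : (15876 : ZMod 4) = 0 := by decide
  have e4 : (27000 : ZMod 4) = 0 := by decide
  have f1 : (11025 : ZMod 9) = 0 := by decide
  have f2 : (34300 : ZMod 9) = 1 := by decide
  have f3 : (15876 : ZMod 9) = 0 := by decide
  have f4 : (27000 : ZMod 9) = 0 := by decide
  have g1 : (11025 : ZMod 25) = 0 := by decide
  have g2 : (34300 : ZMod 25) = 0 := by decide
  have g3 : (15876 : ZMod 25) = 1 := by decide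
  have g4 : (27000 : ZMod 25) = 0 := by decide
  have k1 : (11025 : ZMod 49) = 0 := by decide
  have k2 : (34300 : ZMod 49) = 0 := by decide
  have k3 : (15876 : ZMod 49) = 0 := by decide
  have k4 : (27000 : ZMod 49) = 1 := by decide
  unfold kap row
  refine Prod.ext ?_ (Prod.ext ?_ (Prod.ext ?_ ?_))
  · simp only [Bool.false_eq_true, if_false]; push_cast; rw [e1, e2, e3, e4]; ring
  · simp only [Bool.false_eq_true, if_false]; push_cast; rw [f1, f2, f3, f4]; ring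
  · simp only [Bool.false_eq_true, if_false]; push_cast; rw [g1, g2, g3, g4]; ring
  · simp only [Bool.false_eq_true, if_false]; push_cast; rw [k1, k2, k3, k4]; ring

/-- membership, type true, class 0 -/
theorem mem0t (h r : K) (i : Ix) : (h - sh true i, r - kap (row true i)) ∈ A0 ↔
    (rD0 (kd ((r.2.2.1.val + 25 - 5 * i.2.2.1) % 25) ((r.2.2.2.val + 49 - 7 * i.2.2.2) % 49))
        (h.2.1 - r.2.1).val ((r.1.val + 4 - i.1) % 4) ((r.2.1.val + 9 - i.2.1) % 9) ≠ 0 ∧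
      rD0 (kd ((r.2.2.1.val + 25 - 5 * i.2.2.1) % 25) ((r.2.2.2.val + 49 - 7 * i.2.2.2) % 49))
        (h.2.1 - r.2.1).val ((r.1.val + 4 - i.1) % 4) ((r.2.1.val + 9 - i.2.1) % 9) =
        rB0 (ce ((r.1.val + 4 - i.1) % 4) ((r.2.1.val + 9 - i.2.1) % 9))
          (((h.2.2.2 - r.2.2.2).val + 7 * i.2.2.2) % 49)
          ((r.2.2.1.val + 25 - 5 * i.2.2.1) % 25) ((r.2.2.2.val + 49 - 7 * i.2.2.2) % 49)) := by
  rw [kap_true]
  have q1 : h.2.1 - ((i.2.1 : ℕ) : ZMod 9) - (r.2.1 - ((i.2.1 : ℕ) : ZMod 9)) = h.2.1 - r.2.1 := by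
    ring
  have q2 : h.2.2.2 - 0 - (r.2.2.2 - ((7 * (i.2.2.2 : ℕ) : ℕ) : ZMod 49)) =
      h.2.2.2 - r.2.2.2 + ((7 * (i.2.2.2 : ℕ) : ℕ) : ZMod 49) := by ring
  have b1 := i.1.2
  have b2 := i.2.1.2
  have b3 := i.2.2.1.2
  have b4 := i.2.2.2.2
  simp only [A0, Set.mem_setOf_eq, sh, if_true, Prod.fst_sub, Prod.snd_sub, q1, q2]
  rw [vs _ (show (i.1 : ℕ) ≤ 4 by omega), vs _ (show (i.2.1 : ℕ) ≤ 9 by omega),
    vs _ (show 5 * (i.2.2.1 : ℕ) ≤ 25 by omega), vs _ (show 7 * (i.2.2.2 : ℕ) ≤ 49 by omega), va]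

/-- membership, type true, class 1 -/
theorem mem1t (h r : K) (i : Ix) : (h - sh true i, r - kap (row true i)) ∈ A1 ↔
    (rD1 (kd ((r.2.2.1.val + 25 - 5 * i.2.2.1) % 25) ((r.2.2.2.val + 49 - 7 * i.2.2.2) % 49))
        (h.1 - r.1).val ((r.1.val + 4 - i.1) % 4) ((r.2.1.val + 9 - i.2.1) % 9) ≠ 0 ∧
      rD1 (kd ((r.2.2.1.val + 25 - 5 * i.2.2.1) % 25) ((r.2.2.2.val + 49 - 7 * i.2.2.2) % 49))
        (h.1 - r.1).val ((r.1.val + 4 - i.1) % 4) ((r.2.1.val + 9 - i.2.1) % 9) =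
        rB1 (ce ((r.1.val + 4 - i.1) % 4) ((r.2.1.val + 9 - i.2.1) % 9))
          (((h.2.2.1 - r.2.2.1).val + 5 * i.2.2.1) % 25)
          ((r.2.2.1.val + 25 - 5 * i.2.2.1) % 25) ((r.2.2.2.val + 49 - 7 * i.2.2.2) % 49)) := by
  rw [kap_true]
  have q1 : h.1 - ((i.1 : ℕ) : ZMod 4) - (r.1 - ((i.1 : ℕ) : ZMod 4)) = h.1 - r.1 := by
    ring
  have q2 : h.2.2.1 - 0 - (r.2.2.1 - ((5 * (i.2.2.1 : ℕ) : ℕ) : ZMod 25)) =
      h.2.2.1 - r.2.2.1 + ((5 * (i.2.2.1 : ℕ) : ℕ) : ZMod 25) := by ring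
  have b1 := i.1.2
  have b2 := i.2.1.2
  have b3 := i.2.2.1.2
  have b4 := i.2.2.2.2
  simp only [A1, Set.mem_setOf_eq, sh, if_true, Prod.fst_sub, Prod.snd_sub, q1, q2]
  rw [vs _ (show (i.1 : ℕ) ≤ 4 by omega), vs _ (show (i.2.1 : ℕ) ≤ 9 by omega),
    vs _ (show 5 * (i.2.2.1 : ℕ) ≤ 25 by omega), vs _ (show 7 * (i.2.2.2 : ℕ) ≤ 49 by omega), va]

/-- membership, type false, class 0 -/
theorem mem0f (h r : K) (i : Ix) : (h - sh false i, r - kap (row false i)) ∈ A0 ↔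
    (rD0 (kd ((r.2.2.1.val + 25 - i.2.2.1) % 25) ((r.2.2.2.val + 49 - i.2.2.2) % 49))
        (((h.2.1 - r.2.1).val + 3 * i.2.1) % 9) ((r.1.val + 4 - 2 * i.1) % 4)
        ((r.2.1.val + 9 - 3 * i.2.1) % 9) ≠ 0 ∧
      rD0 (kd ((r.2.2.1.val + 25 - i.2.2.1) % 25) ((r.2.2.2.val + 49 - i.2.2.2) % 49))
        (((h.2.1 - r.2.1).val + 3 * i.2.1) % 9) ((r.1.val + 4 - 2 * i.1) % 4)
        ((r.2.1.val + 9 - 3 * i.2.1) % 9) =
        rB0 (ce ((r.1.val + 4 - 2 * i.1) % 4) ((r.2.1.val + 9 - 3 * i.2.1) % 9))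
          (h.2.2.2 - r.2.2.2).val
          ((r.2.2.1.val + 25 - i.2.2.1) % 25) ((r.2.2.2.val + 49 - i.2.2.2) % 49)) := by
  rw [kap_false]
  have q1 : h.2.1 - 0 - (r.2.1 - ((3 * (i.2.1 : ℕ) : ℕ) : ZMod 9)) =
      h.2.1 - r.2.1 + ((3 * (i.2.1 : ℕ) : ℕ) : ZMod 9) := by
    ring
  have q2 : h.2.2.2 - ((i.2.2.2 : ℕ) : ZMod 49) - (r.2.2.2 - ((i.2.2.2 : ℕ) : ZMod 49)) =
      h.2.2.2 - r.2.2.2 := by ring
  have b1 := i.1.2
  have b2 := i.2.1.2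
  have b3 := i.2.2.1.2
  have b4 := i.2.2.2.2
  simp only [A0, Set.mem_setOf_eq, sh, Bool.false_eq_true, if_false, Prod.fst_sub, Prod.snd_sub,
    q1, q2]
  rw [vs _ (show 2 * (i.1 : ℕ) ≤ 4 by omega), vs _ (show 3 * (i.2.1 : ℕ) ≤ 9 by omega),
    vs _ (show (i.2.2.1 : ℕ) ≤ 25 by omega), vs _ (show (i.2.2.2 : ℕ) ≤ 49 by omega), va]

/-- membership, type false, class 1 -/
theorem mem1f (h r : K) (i : Ix) : (h - sh false i, r - kap (row false i)) ∈ A1 ↔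
    (rD1 (kd ((r.2.2.1.val + 25 - i.2.2.1) % 25) ((r.2.2.2.val + 49 - i.2.2.2) % 49))
        (((h.1 - r.1).val + 2 * i.1) % 4) ((r.1.val + 4 - 2 * i.1) % 4)
        ((r.2.1.val + 9 - 3 * i.2.1) % 9) ≠ 0 ∧
      rD1 (kd ((r.2.2.1.val + 25 - i.2.2.1) % 25) ((r.2.2.2.val + 49 - i.2.2.2) % 49))
        (((h.1 - r.1).val + 2 * i.1) % 4) ((r.1.val + 4 - 2 * i.1) % 4)
        ((r.2.1.val + 9 - 3 * i.2.1) % 9) =
        rB1 (ce ((r.1.val + 4 - 2 * i.1) % 4) ((r.2.1.val + 9 - 3 * i.2.1) % 9))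
          (h.2.2.1 - r.2.2.1).val
          ((r.2.2.1.val + 25 - i.2.2.1) % 25) ((r.2.2.2.val + 49 - i.2.2.2) % 49)) := by
  rw [kap_false]
  have q1 : h.1 - 0 - (r.1 - ((2 * (i.1 : ℕ) : ℕ) : ZMod 4)) =
      h.1 - r.1 + ((2 * (i.1 : ℕ) : ℕ) : ZMod 4) := by
    ring
  have q2 : h.2.2.1 - ((i.2.2.1 : ℕ) : ZMod 25) - (r.2.2.1 - ((i.2.2.1 : ℕ) : ZMod 25)) =
      h.2.2.1 - r.2.2.1 := by ring
  have b1 := i.1.2
  have b2 := i.2.1.2
  have b3 := i.2.2.1.2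
  have b4 := i.2.2.2.2
  simp only [A1, Set.mem_setOf_eq, sh, Bool.false_eq_true, if_false, Prod.fst_sub, Prod.snd_sub,
    q1, q2]
  rw [vs _ (show 2 * (i.1 : ℕ) ≤ 4 by omega), vs _ (show 3 * (i.2.1 : ℕ) ≤ 9 by omega),
    vs _ (show (i.2.2.1 : ℕ) ≤ 25 by omega), vs _ (show (i.2.2.2 : ℕ) ≤ 49 by omega), va]

theorem st_fin : Vale.Agent.P043.T2.StFin := by
  have m4 : ∀ x : ZMod 4, x.val < 4 := fun x => ZMod.val_lt x
  have m9 : ∀ x : ZMod 9, x.val < 9 := fun x => ZMod.val_lt x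
  have m25 : ∀ x : ZMod 25, x.val < 25 := fun x => ZMod.val_lt x
  have m49 : ∀ x : ZMod 49, x.val < 49 := fun x => ZMod.val_lt x
  refine ⟨A0, A1, X, ?_, ?_, ?_, ?_, ?_, ?_⟩
  · intro h r
    simp only [A0, Set.mem_setOf_eq, s0, Prod.fst_add, Prod.snd_add, add_zero]
  · intro h r
    simp only [A1, Set.mem_setOf_eq, s1, Prod.fst_add, Prod.snd_add, add_zero]
  · intro τ h r hr
    cases τ
    · have hr' : c1 (ce r.1.val r.2.1.val) = false := hr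
      have := (ff0 (m9 (h.2.1 - r.2.1)) (m4 r.1) (m9 r.2.1) (m25 r.2.2.1) (m49 r.2.2.2)
        (m49 (h.2.2.2 - r.2.2.2)) hr').ix
      exact (existsUnique_congr fun i => mem0f h r i).2 this
    · have hr' : X2 (kd r.2.2.1.val r.2.2.2.val) r.2.1.val = true := hr
      have := (tt0 (m9 (h.2.1 - r.2.1)) (m4 r.1) (m9 r.2.1) (m25 r.2.2.1) (m49 r.2.2.2)
        (m49 (h.2.2.2 - r.2.2.2)) hr').ix
      exact (existsUnique_congr fun i => mem0t h r i).2 this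
  · intro τ h r hr i
    have b1 := i.1.2
    have b2 := i.2.1.2
    cases τ
    · have hr' : ¬ c1 (ce r.1.val r.2.1.val) = false := hr
      rw [Bool.not_eq_false] at hr'
      rw [mem0f]
      rintro ⟨h1, -⟩
      refine h1 ?_
      have h2 := N0le (kd_lt ((r.2.2.1.val + 25 - i.2.2.1) % 25)
        ((r.2.2.2.val + 49 - i.2.2.2) % 49)) (Nat.mod_lt _ (by norm_num))
        (n := ((h.2.1 - r.2.1).val + 3 * i.2.1) % 9) (i := (r.1.val + 4 - 2 * i.1) % 4)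
        (j := (r.2.1.val + 9 - 3 * i.2.1) % 9) (Nat.mod_lt _ (by norm_num))
        (Nat.mod_lt _ (by norm_num))
      have h3 : ce ((r.1.val + 4 - 2 * i.1) % 4) ((r.2.1.val + 9 - 3 * i.2.1) % 9) =
          ce r.1.val r.2.1.val := by
        unfold ce
        have g1 : (r.1.val + 4 - 2 * i.1) % 4 % 2 = r.1.val % 2 := by omega
        have g2 : (r.2.1.val + 9 - 3 * i.2.1) % 9 % 3 = r.2.1.val % 3 := by omega
        rw [g1, g2]
      rw [h3, N0c (kd_lt _ _) (ce_lt _ _) hr'] at h2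
      omega
    · have hr' : ¬ X2 (kd r.2.2.1.val r.2.2.2.val) r.2.1.val = true := hr
      rw [Bool.not_eq_true] at hr'
      rw [mem0t]
      rintro ⟨h1, -⟩
      refine h1 ?_
      rw [kd_congr (k := r.2.2.1.val) (l := r.2.2.2.val)
        (by have := i.2.2.1.2; have := m25 r.2.2.1; omega)
        (by have := i.2.2.2.2; have := m49 r.2.2.2; omega)]
      exact T0n (kd_lt _ _) (m9 _) (m4 _) (m9 _) hr' _ i.1.2 _ i.2.1.2
  · intro τ h r hr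
    cases τ
    · have hr' : ¬ c1 (ce r.1.val r.2.1.val) = false := hr
      rw [Bool.not_eq_false] at hr'
      have := (ff1 (m4 (h.1 - r.1)) (m4 r.1) (m9 r.2.1) (m25 r.2.2.1) (m49 r.2.2.2)
        (m25 (h.2.2.1 - r.2.2.1)) hr').ix
      exact (existsUnique_congr fun i => mem1f h r i).2 this
    · have hr' : ¬ X2 (kd r.2.2.1.val r.2.2.2.val) r.2.1.val = true := hr
      rw [Bool.not_eq_true] at hr'
      have := (tt1 (m4 (h.1 - r.1)) (m4 r.1) (m9 r.2.1) (m25 r.2.2.1) (m49 r.2.2.2)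
        (m25 (h.2.2.1 - r.2.2.1)) hr').ix
      exact (existsUnique_congr fun i => mem1t h r i).2 this
  · intro τ h r hr i
    have b1 := i.1.2
    have b2 := i.2.1.2
    cases τ
    · have hr' : c1 (ce r.1.val r.2.1.val) = false := hr
      rw [mem1f]
      rintro ⟨h1, -⟩
      refine h1 ?_
      have h2 := N1le (kd_lt ((r.2.2.1.val + 25 - i.2.2.1) % 25)
        ((r.2.2.2.val + 49 - i.2.2.2) % 49)) (Nat.mod_lt _ (by norm_num))
        (n := ((h.1 - r.1).val + 2 * i.1) % 4) (i := (r.1.val + 4 - 2 * i.1) % 4)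
        (j := (r.2.1.val + 9 - 3 * i.2.1) % 9) (Nat.mod_lt _ (by norm_num))
        (Nat.mod_lt _ (by norm_num))
      have h3 : ce ((r.1.val + 4 - 2 * i.1) % 4) ((r.2.1.val + 9 - 3 * i.2.1) % 9) =
          ce r.1.val r.2.1.val := by
        unfold ce
        have g1 : (r.1.val + 4 - 2 * i.1) % 4 % 2 = r.1.val % 2 := by omega
        have g2 : (r.2.1.val + 9 - 3 * i.2.1) % 9 % 3 = r.2.1.val % 3 := by omega
        rw [g1, g2]
      rw [h3, N1c (kd_lt _ _) (ce_lt _ _) hr'] at h2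
      omega
    · have hr' : X2 (kd r.2.2.1.val r.2.2.2.val) r.2.1.val = true := hr
      rw [mem1t]
      rintro ⟨h1, -⟩
      refine h1 ?_
      rw [kd_congr (k := r.2.2.1.val) (l := r.2.2.2.val)
        (by have := i.2.2.1.2; have := m25 r.2.2.1; omega)
        (by have := i.2.2.2.2; have := m49 r.2.2.2; omega)]
      exact T1n (kd_lt _ _) (m4 _) (m4 _) (m9 _) hr' _ i.1.2 _ i.2.1.2

end Vale.Agent.P043.T2.H779
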