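import Vale.Agent.P043.T2.Defs

/-! # P043, the finite gadget: tables (natural numbers) -/

namespace Vale.Agent.P043.T2.H779

/-- digit -/
def dg (b N i : ℕ) : ℕ := N / b ^ i % b

def KD : ℕ := 12493199279679226192921651885640299995222411940642248
def kT (e : ℕ) : ℕ :=
  if e = 0 then 23178476369360224702227641082953
  else if e = 1 then 23179542992733377101360361635840
  else if e = 2 then 23179542992733377101360361635840
  else if e = 3 then 23179896684490633075517110681600
  else if e = 4 then 17362288662141519134022960302153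
  else 23179896684490633075517110681600
def lT (e : ℕ) : ℕ :=
  if e = 0 then 28974865335840179027843431268352
  else if e = 1 then 20996524114545784060210807793938
  else if e = 2 then 23180247580606766407350998194468
  else if e = 3 then 34022659818418190635909490161224
  else if e = 4 then 28974865335840179027843431268352
  else 34769314467343695373342907596800
def rT (e : ℕ) : ℕ :=
  if e = 0 then 16561321741423396710832818425992
  else if e = 1 then 644234274802844382576182329864
  else if e = 2 then 22352402719405656968809484420744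
  else if e = 3 then 644410972246045748387138244672
  else if e = 4 then 10807379182519875740989402189960
  else 22352750685461385620283564770952

/-- kind of the layer of `(k,l)` -/
def kd (k l : ℕ) : ℕ := dg 32 KD (5 * (l % 7) + k % 5)
/-- layer and rank of the items of the cell `e` -/
def kI (e t : ℕ) : ℕ := dg 8 (kT e) t
def lI (e t : ℕ) : ℕ := dg 8 (lT e) t
def rI (e t : ℕ) : ℕ := dg 8 (rT e) t

/-- rank plus one of `(i,j)` in `D0` (0 outside); `n` is `h9 - j` -/
def rD0 (x n i j : ℕ) : ℕ :=
  if x < 14 then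
    (if i % 2 = x / 7 then
      (if j % 3 = 1 - x / 7 ∧ 2 * (n / 3) + i / 2 < x % 7 then 2 * (n / 3) + i / 2 + 1
        else if j % 3 = 2 ∧ x % 7 ≤ 2 * (n / 3) + i / 2 then 2 * (n / 3) + i / 2 - x % 7 + 1
        else 0)
      else 0)
  else if x = 15 then (if j = 0 ∧ i % 2 = 1 then i / 2 + 1 else 0)
  else if x = 16 then (if j = 1 ∧ i % 2 = 0 then i / 2 + 1 else 0)
  else 0

/-- rank plus one of `(i,j)` in `D1` (0 outside); `n` is `h4 - i` -/
def rD1 (x n i j : ℕ) : ℕ :=
  if x = 14 then
    (if (i % 2 = 0 ∧ j % 3 = 0 ∧ n / 2 = 0) ∨ (i % 2 = 1 ∧ j % 3 = 1 ∧ n / 2 = 1) then j / 3 + 1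
      else 0)
  else if x = 15 then
    (if i % 2 = 0 ∧ j % 3 = 0 ∧ j ≠ 0 then i / 2 + 2 * (j / 3 - 1) + 1 else 0)
  else if x = 16 then
    (if i % 2 = 1 ∧ j % 3 = 1 ∧ j ≠ 1 then i / 2 + 2 * (j / 3 - 1) + 1 else 0)
  else 0

/-- numbers of items -/
def N0 (x e : ℕ) : ℕ :=
  if x < 14 then (if e = 3 * (x / 7) + (1 - x / 7) then x % 7
    else if e = 3 * (x / 7) + 2 then 6 - x % 7 else 0)
  else if x = 15 ∧ e = 3 then 2 else if x = 16 ∧ e = 1 then 2 else 0

def N1 (x e : ℕ) : ℕ :=
  if x = 14 ∧ (e = 0 ∨ e = 4) then 3 else if x = 15 ∧ e = 0 then 4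
  else if x = 16 ∧ e = 4 then 4 else 0

/-- class 0 region of type true -/
def X2 (x j : ℕ) : Bool :=
  if x < 14 then true else if x = 14 then false else if x = 15 then decide (j ≤ 2)
  else decide (1 ≤ j ∧ j ≤ 3)

/-- cell -/
def ce (i j : ℕ) : ℕ := 3 * (i % 2) + j % 3
/-- class 1 cells -/
def c1 (e : ℕ) : Bool := decide (e = 0 ∨ e = 4)

/-- rank plus one of `(k,l)` in `B0`; `u` is `h49 - l` -/
def rB0 (e u k l : ℕ) : ℕ :=
  if k % 5 = kI e (5 * (u / 7) + k / 5) ∧ l % 7 = lI e (5 * (u / 7) + k / 5) then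
    rI e (5 * (u / 7) + k / 5) + 1 else 0

/-- rank plus one of `(k,l)` in `B1`; `u` is `h25 - k` -/
def rB1 (e u k l : ℕ) : ℕ :=
  if k % 5 = kI e (7 * (u / 5) + l / 7) ∧ l % 7 = lI e (7 * (u / 5) + l / 7) then
    rI e (7 * (u / 5) + l / 7) + 1 else 0


/-- bounded quantifiers as booleans -/
def al (n : ℕ) (p : ℕ → Bool) : Bool := (List.range n).all p
def eu1 (n : ℕ) (p : ℕ → Bool) : Bool :=
  (List.range n).any fun a => p a && (List.range n).all fun a' => !(p a') || (a' == a)
def eu2 (m n : ℕ) (p : ℕ → ℕ → Bool) : Bool :=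
  (List.range m).any fun a => (List.range n).any fun b => p a b &&
    (List.range m).all fun a' => (List.range n).all fun b' => !(p a' b') || (a' == a && b' == b)

theorem al_iff {n : ℕ} {p : ℕ → Bool} : al n p = true ↔ ∀ i < n, p i = true := by
  simp [al, List.all_eq_true]

theorem eu1_iff {n : ℕ} {p : ℕ → Bool} : eu1 n p = true ↔
    ∃ a < n, p a = true ∧ ∀ a' < n, p a' = true → a' = a := by
  simp only [eu1, List.any_eq_true, List.all_eq_true, List.mem_range, Bool.and_eq_true,
    Bool.or_eq_true, Bool.not_eq_true', beq_iff_eq]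
  constructor
  · rintro ⟨a, ha, h1, h2⟩
    refine ⟨a, ha, h1, fun a' ha' h3 => ?_⟩
    rcases h2 a' ha' with h4 | h4
    · rw [h3] at h4; exact absurd h4 (by simp)
    · exact h4
  · rintro ⟨a, ha, h1, h2⟩
    refine ⟨a, ha, h1, fun a' ha' => ?_⟩
    by_cases h3 : p a' = true
    · exact Or.inr (h2 a' ha' h3)
    · left; simpa using h3

theorem eu2_iff {m n : ℕ} {p : ℕ → ℕ → Bool} : eu2 m n p = true ↔
    ∃ a < m, ∃ b < n, p a b = true ∧ ∀ a' < m, ∀ b' < n, p a' b' = true → a' = a ∧ b' = b := by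
  simp only [eu2, List.any_eq_true, List.all_eq_true, List.mem_range, Bool.and_eq_true,
    Bool.or_eq_true, Bool.not_eq_true', beq_iff_eq]
  constructor
  · rintro ⟨a, ha, b, hb, h1, h2⟩
    refine ⟨a, ha, b, hb, h1, fun a' ha' b' hb' h3 => ?_⟩
    rcases h2 a' ha' b' hb' with h4 | h4
    · rw [h3] at h4; exact absurd h4 (by simp)
    · exact h4
  · rintro ⟨a, ha, b, hb, h1, h2⟩
    refine ⟨a, ha, b, hb, h1, fun a' ha' b' hb' => ?_⟩
    by_cases h3 : p a' b' = true
    · exact Or.inr (h2 a' ha' b' hb' h3)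
    · left; simpa using h3

/-! ### Checks -/

theorem kd_lt' : (al 5 fun k => al 7 fun l => decide (kd k l < 17)) = true := by decide +kernel

theorem T0' : (al 17 fun x => al 9 fun n => al 4 fun i => al 9 fun j =>
    if X2 x j then eu2 2 3 fun a b => !(rD0 x n ((i + 4 - a) % 4) ((j + 9 - b) % 9) == 0)
    else al 2 fun a => al 3 fun b => rD0 x n ((i + 4 - a) % 4) ((j + 9 - b) % 9) == 0) = true := by
  decide +kernel

theorem T1' : (al 17 fun x => al 4 fun n => al 4 fun i => al 9 fun j =>
    if X2 x j then al 2 fun a => al 3 fun b => rD1 x n ((i + 4 - a) % 4) ((j + 9 - b) % 9) == 0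
    else eu2 2 3 fun a b => !(rD1 x n ((i + 4 - a) % 4) ((j + 9 - b) % 9) == 0)) = true := by
  decide +kernel

theorem R0' : (al 17 fun x => al 9 fun n => al 4 fun i => al 9 fun j => al (N0 x (ce i j)) fun z =>
    eu2 2 3 fun a b => rD0 x ((n + 3 * b) % 9) ((i + 4 - 2 * a) % 4) ((j + 9 - 3 * b) % 9)
      == z + 1) = true := by
  decide +kernel

theorem R1' : (al 17 fun x => al 4 fun n => al 4 fun i => al 9 fun j => al (N1 x (ce i j)) fun z =>
    eu2 2 3 fun a b => rD1 x ((n + 2 * a) % 4) ((i + 4 - 2 * a) % 4) ((j + 9 - 3 * b) % 9)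
      == z + 1) = true := by
  decide +kernel

theorem N0' : (al 17 fun x => al 9 fun n => al 4 fun i => al 9 fun j =>
    decide (rD0 x n i j ≤ N0 x (ce i j))) = true := by decide +kernel

theorem N1' : (al 17 fun x => al 4 fun n => al 4 fun i => al 9 fun j =>
    decide (rD1 x n i j ≤ N1 x (ce i j))) = true := by decide +kernel

theorem NC' : (al 17 fun x => al 6 fun e => if c1 e then N0 x e == 0 else N1 x e == 0) = true := by
  decide +kernel

theorem I0' : (al 6 fun e => c1 e || al 5 fun k => al 7 fun l => al (N0 (kd k l) e) fun z =>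
    eu2 7 5 fun f s => k == kI e (5 * f + s) && l == lI e (5 * f + s) && rI e (5 * f + s) == z)
    = true := by
  decide +kernel

theorem I1' : (al 6 fun e => !(c1 e) || al 5 fun k => al 7 fun l => al (N1 (kd k l) e) fun z =>
    eu2 5 7 fun f s => k == kI e (7 * f + s) && l == lI e (7 * f + s) && rI e (7 * f + s) == z)
    = true := by
  decide +kernel

theorem J0' : (al 6 fun e => c1 e || al 7 fun f => al 5 fun s =>
    kI e (5 * f + s) == kI e (5 * f) && decide (kI e (5 * f + s) < 5) &&
      decide (lI e (5 * f + s) < 7) &&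
      decide (rI e (5 * f + s) < N0 (kd (kI e (5 * f + s)) (lI e (5 * f + s))) e)) = true := by
  decide +kernel

theorem J1' : (al 6 fun e => !(c1 e) || al 5 fun f => al 7 fun s =>
    lI e (7 * f + s) == lI e (7 * f) && decide (kI e (7 * f + s) < 5) &&
      decide (lI e (7 * f + s) < 7) &&
      decide (rI e (7 * f + s) < N1 (kd (kI e (7 * f + s)) (lI e (7 * f + s))) e)) = true := by
  decide +kernel

theorem G1a : (al 49 fun u => al 7 fun f => eu1 7 fun d => ((u + 7 * d) % 49) / 7 == f) = true := by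
  decide +kernel
theorem G1b : (al 25 fun u => al 5 fun f => eu1 5 fun d => ((u + 5 * d) % 25) / 5 == f) = true := by
  decide +kernel
theorem G2a : (al 25 fun k => al 5 fun s => eu1 5 fun c => ((k + 25 - 5 * c) % 25) / 5 == s)
    = true := by decide +kernel
theorem G2b : (al 49 fun l => al 7 fun s => eu1 7 fun d => ((l + 49 - 7 * d) % 49) / 7 == s)
    = true := by decide +kernel
theorem G3a : (al 25 fun k => al 5 fun v => eu1 5 fun c => ((k + 25 - c) % 25) % 5 == v)
    = true := by decide +kernel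
theorem G3b : (al 49 fun l => al 7 fun v => eu1 7 fun d => ((l + 49 - d) % 49) % 7 == v)
    = true := by decide +kernel

end Vale.Agent.P043.T2.H779
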